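import Mathlib

/-!
Definitions for P007: the space of unimodular lattices and the union of the torus orbits
that make up the packet of an order in a totally real field.
-/

open Matrix

namespace Vale.Agent.Lib.P007

/-- `SL_n(ℝ)`. -/
abbrev SLR (n : ℕ) := Matrix.SpecialLinearGroup (Fin n) ℝ

/-- `SL_n(ℤ)` as a subgroup of `SL_n(ℝ)`. -/
def SLZ (n : ℕ) : Subgroup (SLR n) := (Matrix.SpecialLinearGroup.map (Int.castRingHom ℝ)).range

/-- The space `X_n` of covolume-one lattices of `ℝ^n`: the coset `g SL_n(ℤ)` stands for the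
lattice `g ℤ^n`. -/
abbrev X (n : ℕ) := SLR n ⧸ SLZ n

/-- The lattice `g ℤ^n` spanned by the columns of `g`. -/
def latticeOf {n : ℕ} (g : SLR n) : Set (Fin n → ℝ) :=
  Set.range fun z : Fin n → ℤ => g.1.mulVec fun j => (z j : ℝ)

/-- The union of the orbits `Λ_I w A_n` of the packet of the order `O` (with the embeddings
ordered by `σ`): all points of `X_n` whose lattice is
`{ c (σ_j(y) w_j e^{u_j})_j : y ∈ I }` for a proper invertible fractional `O`-ideal `I`,
a scalar `c > 0`, signs `w_j = ±1` and `u` with `∑ u_j = 0`. -/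
def packetOrbits {n : ℕ} {K : Type} [Field K] (σ : Fin n → K →+* ℝ) (O : Subring K) :
    Set (X n) :=
  {x | ∃ (g : SLR n) (I : Submodule O K) (c : ℝ) (w u : Fin n → ℝ),
      (g : X n) = x ∧ (∃ J : Submodule O K, I * J = 1) ∧
      (∀ a : K, (∀ y ∈ I, a * y ∈ I) → a ∈ O) ∧
      0 < c ∧ (∀ j, w j = 1 ∨ w j = -1) ∧ ∑ j, u j = 0 ∧
      latticeOf g = {v | ∃ y ∈ I, ∀ j, v j = c * (σ j y * w j * Real.exp (u j))}}

end Vale.Agent.Lib.P007
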