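import Mathlib

/-!
The totally real quartic field `ℚ(θ)`, `θ^4 - 4 θ^2 + 2 = 0` (so `θ = ±√(2 ± √2)`), which contains
`√2 = θ^2 - 2`, and its orders `O_f = ℤ[√2] + f ℤ[θ]` with `ℤ`-basis `1, f θ, θ^2, f θ^3`.
-/

open Polynomial Matrix

namespace Vale.Agent.Lib.P007

noncomputable def pZ : ℤ[X] := X^4 - 4*X^2 + 2
noncomputable def pQ : ℚ[X] := X^4 - 4*X^2 + 2

lemma pZ_natDegree : pZ.natDegree = 4 := by unfold pZ; compute_degree!
lemma pQ_natDegree : pQ.natDegree = 4 := by unfold pQ; compute_degree!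
lemma pZ_monic : pZ.Monic := by unfold pZ; monicity!
lemma pQ_monic : pQ.Monic := by unfold pQ; monicity!
lemma pZ_map : pZ.map (Int.castRingHom ℚ) = pQ := by
  simp [pZ, pQ]

lemma pZ_irred : Irreducible pZ := by
  have hE : pZ.IsEisensteinAt (Ideal.span {(2:ℤ)}) := by
    constructor
    · rw [pZ_monic.leadingCoeff]
      intro h
      rw [Ideal.mem_span_singleton] at h
      omega
    · intro n hn
      rw [pZ_natDegree] at hn
      rw [Ideal.mem_span_singleton]
      interval_cases n <;> simp [pZ, coeff_X_pow]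
    · rw [Ideal.span_singleton_pow, Ideal.mem_span_singleton]
      simp [pZ, coeff_X_pow]
  have hprime : (Ideal.span {(2:ℤ)}).IsPrime := by
    rw [Ideal.span_singleton_prime (by norm_num)]
    exact Int.prime_two
  exact hE.irreducible hprime pZ_monic.isPrimitive (by rw [pZ_natDegree]; norm_num)

lemma pQ_irred : Irreducible pQ := by
  rw [← pZ_map]
  exact (Polynomial.IsPrimitive.Int.irreducible_iff_irreducible_map_cast
    pZ_monic.isPrimitive).mp pZ_irred

instance instFactIrred : Fact (Irreducible pQ) := ⟨pQ_irred⟩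

/-- The quartic field. -/
abbrev KK := AdjoinRoot pQ

/-- the generator -/
noncomputable def θ : KK := AdjoinRoot.root pQ

lemma θ_pow4 : θ^4 = 4*θ^2 - 2 := by
  have h : aeval θ pQ = 0 := by
    unfold θ
    have := AdjoinRoot.eval₂_root pQ
    rw [aeval_def]
    exact this
  simp only [pQ, map_add, map_sub, map_mul, map_pow, aeval_X, map_ofNat] at h
  linear_combination h

lemma finrank_KK : Module.finrank ℚ KK = 4 := by
  rw [(AdjoinRoot.powerBasis pQ_monic.ne_zero).finrank, AdjoinRoot.powerBasis_dim, pQ_natDegree]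

/-- the power basis indexed by `Fin 4` -/
noncomputable def pbB : Module.Basis (Fin 4) ℚ KK :=
  (AdjoinRoot.powerBasis pQ_monic.ne_zero).basis.reindex
    (finCongr (by rw [AdjoinRoot.powerBasis_dim, pQ_natDegree]))

lemma pbB_apply (i : Fin 4) : pbB i = θ ^ (i : ℕ) := by
  simp [pbB, θ]

/-- the coefficients `1, f, 1, f` -/
def cf (f : ℕ) : Fin 4 → ℚ := ![1, f, 1, f]

/-- the basis `1, f θ, θ^2, f θ^3` of the order `O_f` -/
noncomputable def bf (f : ℕ) : Fin 4 → KK := fun i => algebraMap ℚ KK (cf f i) * θ ^ (i : ℕ)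

lemma bf_eq (f : ℕ) : bf f = (⇑pbB) ᵥ* (Matrix.diagonal (cf f)).map (algebraMap ℚ KK) := by
  ext i
  simp only [bf, Matrix.vecMul, dotProduct, Matrix.map_apply, Matrix.diagonal_apply]
  rw [Finset.sum_eq_single i]
  · simp [pbB_apply, mul_comm]
  · intro j _ hj
    simp [hj]
  · simp

lemma discr_bf (f : ℕ) : Algebra.discr ℚ (bf f) = (f:ℚ)^4 * Algebra.discr ℚ (⇑pbB) := by
  rw [bf_eq, Algebra.discr_of_matrix_vecMul, Matrix.det_diagonal]
  simp [cf, Fin.prod_univ_four]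
  left
  ring

lemma discr_pbB_ne : Algebra.discr ℚ (⇑pbB) ≠ 0 := Algebra.discr_not_zero_of_basis ℚ pbB

lemma linInd_bf (f : ℕ) (hf : f ≠ 0) : LinearIndependent ℚ (bf f) := by
  have h : ∀ i, cf f i ≠ 0 := by
    intro i
    have : (f:ℚ) ≠ 0 := by exact_mod_cast hf
    fin_cases i <;> simp [cf, this]
  have h2 : bf f = fun i => (Units.mk0 (cf f i) (h i)) • pbB i := by
    ext i
    simp [bf, pbB_apply, Units.smul_def, Algebra.smul_def]
  rw [h2]
  exact pbB.linearIndependent.units_smul _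


/-- the `ℤ`-module spanned by `1, f θ, θ^2, f θ^3` -/
noncomputable def Mf (f : ℕ) : Submodule ℤ KK := Submodule.span ℤ (Set.range (bf f))

lemma bf0 (f : ℕ) : bf f 0 = 1 := by simp [bf, cf]
lemma bf1 (f : ℕ) : bf f 1 = (f : KK) * θ := by simp [bf, cf]
lemma bf2 (f : ℕ) : bf f 2 = θ^2 := by simp [bf, cf]
lemma bf3 (f : ℕ) : bf f 3 = (f : KK) * θ^3 := by simp [bf, cf]

lemma mem_Mf (f : ℕ) (a0 a1 a2 a3 : ℤ) :
    (a0 : KK) + a1 * ((f : KK) * θ) + a2 * θ^2 + a3 * ((f : KK) * θ^3) ∈ Mf f := by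
  have h : ∀ i, bf f i ∈ Mf f := fun i => Submodule.subset_span ⟨i, rfl⟩
  have h0 := (Mf f).smul_mem a0 (h 0)
  have h1 := (Mf f).smul_mem a1 (h 1)
  have h2 := (Mf f).smul_mem a2 (h 2)
  have h3 := (Mf f).smul_mem a3 (h 3)
  rw [bf0] at h0
  rw [bf1] at h1
  rw [bf2] at h2
  rw [bf3] at h3
  have := (Mf f).add_mem ((Mf f).add_mem ((Mf f).add_mem h0 h1) h2) h3
  simpa [zsmul_eq_mul] using this

lemma Mf_mul (f : ℕ) {x y : KK} (hx : x ∈ Mf f) (hy : y ∈ Mf f) : x * y ∈ Mf f := by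
  have hle : Mf f * Mf f ≤ Mf f := by
    unfold Mf
    rw [Submodule.span_mul_span, Submodule.span_le]
    rintro _ ⟨_, ⟨i, rfl⟩, _, ⟨j, rfl⟩, rfl⟩
    have h4 := θ_pow4
    show bf f i * bf f j ∈ Mf f
    fin_cases i <;> fin_cases j <;>
      simp only [Fin.zero_eta, Fin.mk_one, Fin.reduceFinMk, bf0, bf1, bf2, bf3]
    · convert mem_Mf f 1 0 0 0 using 1; push_cast; ring
    · convert mem_Mf f 0 1 0 0 using 1; push_cast; ring
    · convert mem_Mf f 0 0 1 0 using 1; push_cast; ring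
    · convert mem_Mf f 0 0 0 1 using 1; push_cast; ring
    · convert mem_Mf f 0 1 0 0 using 1; push_cast; ring
    · convert mem_Mf f 0 0 (f^2) 0 using 1; push_cast; ring
    · convert mem_Mf f 0 0 0 1 using 1; push_cast; ring
    · convert mem_Mf f (-2*f^2) 0 (4*f^2) 0 using 1; push_cast; linear_combination (f:KK)^2 * h4
    · convert mem_Mf f 0 0 1 0 using 1; push_cast; ring
    · convert mem_Mf f 0 0 0 1 using 1; push_cast; ring
    · convert mem_Mf f (-2) 0 4 0 using 1; push_cast; linear_combination h4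
    · convert mem_Mf f 0 (-2) 0 4 using 1; push_cast; linear_combination (f:KK) * θ * h4
    · convert mem_Mf f 0 0 0 1 using 1; push_cast; ring
    · convert mem_Mf f (-2*f^2) 0 (4*f^2) 0 using 1; push_cast; linear_combination (f:KK)^2 * h4
    · convert mem_Mf f 0 (-2) 0 4 using 1; push_cast; linear_combination (f:KK) * θ * h4
    · convert mem_Mf f (-8*f^2) 0 (14*f^2) 0 using 1; push_cast
      linear_combination ((f:KK)^2 * θ^2 + 4 * (f:KK)^2) * h4
  exact hle (Submodule.mul_mem_mul hx hy)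

/-- the order `O_f = ℤ[√2] + f ℤ[θ]` -/
noncomputable def Of (f : ℕ) : Subring KK where
  carrier := Mf f
  mul_mem' := fun hx hy => Mf_mul f hx hy
  one_mem' := by
    have := mem_Mf f 1 0 0 0
    simpa using this
  add_mem' := fun hx hy => (Mf f).add_mem hx hy
  zero_mem' := (Mf f).zero_mem
  neg_mem' := fun hx => (Mf f).neg_mem hx

lemma Of_coe (f : ℕ) : (Of f : Set KK) = (Submodule.span ℤ (Set.range (bf f)) : Set KK) := rfl

/-- `√2 = θ^2 - 2` -/
noncomputable def αK : KK := θ^2 - 2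

lemma αK_mem (f : ℕ) : αK ∈ Of f := by
  have := mem_Mf f (-2) 0 1 0
  show αK ∈ Mf f
  convert this using 1
  unfold αK
  push_cast
  ring

/-- the four real roots `±√(2 ± √2)` -/
noncomputable def rr : Fin 4 → ℝ :=
  ![Real.sqrt (2 + Real.sqrt 2), - Real.sqrt (2 + Real.sqrt 2),
    Real.sqrt (2 - Real.sqrt 2), - Real.sqrt (2 - Real.sqrt 2)]

lemma sqrt2_lt : Real.sqrt 2 < 2 := by
  rw [Real.sqrt_lt' (by norm_num)]; norm_num

lemma rr_sq (j : Fin 4) : rr j ^ 2 = 2 + Real.sqrt 2 ∨ rr j ^ 2 = 2 - Real.sqrt 2 := by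
  have h1 : (0:ℝ) ≤ 2 + Real.sqrt 2 := by positivity
  have h2 : (0:ℝ) ≤ 2 - Real.sqrt 2 := by linarith [sqrt2_lt]
  fin_cases j
  · left; simp [rr, Real.sq_sqrt h1]
  · left; simp [rr, Real.sq_sqrt h1]
  · right; simp [rr, Real.sq_sqrt h2]
  · right; simp [rr, Real.sq_sqrt h2]

lemma rr_root (j : Fin 4) : pQ.eval₂ (algebraMap ℚ ℝ) (rr j) = 0 := by
  have hs : Real.sqrt 2 ^ 2 = 2 := Real.sq_sqrt (by norm_num)
  have : pQ.eval₂ (algebraMap ℚ ℝ) (rr j) = (rr j ^ 2)^2 - 4 * rr j ^ 2 + 2 := by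
    simp [pQ, eval₂_add, eval₂_sub, eval₂_mul, eval₂_pow]
    ring
  rw [this]
  rcases rr_sq j with h | h <;> rw [h] <;> nlinarith [hs]

/-- the four real embeddings -/
noncomputable def σK (j : Fin 4) : KK →+* ℝ := AdjoinRoot.lift (algebraMap ℚ ℝ) (rr j) (rr_root j)

lemma σK_θ (j : Fin 4) : σK j θ = rr j := by
  simp [σK, θ]

lemma rr_inj : Function.Injective rr := by
  have h1 : (0:ℝ) < 2 + Real.sqrt 2 := by positivity
  have h2 : (0:ℝ) < 2 - Real.sqrt 2 := by linarith [sqrt2_lt]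
  have p1 : 0 < Real.sqrt (2 + Real.sqrt 2) := Real.sqrt_pos.mpr h1
  have p2 : 0 < Real.sqrt (2 - Real.sqrt 2) := Real.sqrt_pos.mpr h2
  have hlt : Real.sqrt (2 - Real.sqrt 2) < Real.sqrt (2 + Real.sqrt 2) := by
    apply Real.sqrt_lt_sqrt h2.le
    have : 0 < Real.sqrt 2 := by positivity
    linarith
  intro i j hij
  fin_cases i <;> fin_cases j <;> simp [rr] at hij ⊢ <;> linarith

lemma σK_inj : Function.Injective σK := by
  intro i j hij
  apply rr_inj
  rw [← σK_θ, ← σK_θ, hij]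

lemma σK_α_zero : σK 0 αK = Real.sqrt 2 := by
  have h1 : (0:ℝ) ≤ 2 + Real.sqrt 2 := by positivity
  simp only [αK, map_sub, map_pow, σK_θ, map_ofNat]
  simp [rr, Real.sq_sqrt h1]

end Vale.Agent.Lib.P007
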