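import Vale.Agent.Lib.P007.Defs
import Vale.Agent.Lib.P007.Field

open Matrix

namespace Vale.Agent.Lib.P007

/-- the matrix `(σ_j (b_k))` -/
noncomputable def VV (f : ℕ) : Matrix (Fin 4) (Fin 4) ℝ := Matrix.of fun j k => σK j (bf f k)

lemma σK_bf (f : ℕ) (j k : Fin 4) : σK j (bf f k) = rr j ^ (k : ℕ) * ((cf f k : ℚ) : ℝ) := by
  simp only [bf, map_mul, map_pow, σK_θ]
  have : σK j (algebraMap ℚ KK (cf f k)) = ((cf f k : ℚ) : ℝ) := by
    simp
  rw [this, mul_comm]

lemma VV_eq (f : ℕ) : VV f = Matrix.vandermonde rr * Matrix.diagonal (fun k => ((cf f k : ℚ) : ℝ)) := by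
  ext j k
  rw [Matrix.mul_diagonal, Matrix.vandermonde_apply]
  exact σK_bf f j k

lemma det_VV_ne (f : ℕ) (hf : f ≠ 0) : (VV f).det ≠ 0 := by
  rw [VV_eq, Matrix.det_mul, Matrix.det_diagonal]
  apply mul_ne_zero
  · exact Matrix.det_vandermonde_ne_zero_iff.mpr rr_inj
  · have : (f:ℝ) ≠ 0 := by exact_mod_cast hf
    simp [Fin.prod_univ_four, cf, this]

theorem packet_nonempty (f : ℕ) (hf : f ≠ 0) : (packetOrbits σK (Of f)).Nonempty := by
  set δ := (VV f).det with hδ
  have hδ0 : δ ≠ 0 := det_VV_ne f hf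
  have habs : 0 < |δ| := abs_pos.mpr hδ0
  set c : ℝ := |δ| ^ (-(1/4 : ℝ)) with hc
  have hcpos : 0 < c := Real.rpow_pos_of_pos habs _
  have hc4 : c ^ 4 = |δ|⁻¹ := by
    rw [hc, ← Real.rpow_natCast, ← Real.rpow_mul habs.le]
    norm_num
    rw [Real.rpow_neg_one]
  set w : Fin 4 → ℝ := fun j => if j = 0 then (if 0 < δ then 1 else -1) else 1 with hw
  have hw1 : ∀ j, w j = 1 ∨ w j = -1 := by
    intro j
    simp only [hw]
    split_ifs <;> simp
  have hwprod : (∏ j, w j) * δ = |δ| := by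
    simp only [hw, Fin.prod_univ_four]
    by_cases h : 0 < δ
    · simp [h, abs_of_pos h]
    · have h' : δ < 0 := lt_of_le_of_ne (not_lt.mp h) hδ0
      simp [h, abs_of_neg h']
  set G : Matrix (Fin 4) (Fin 4) ℝ := c • (Matrix.diagonal w * VV f) with hG
  have hdet : G.det = 1 := by
    rw [hG, Matrix.det_smul, Matrix.det_mul, Matrix.det_diagonal, ← hδ, hwprod]
    simp only [Fintype.card_fin]
    rw [hc4]
    exact inv_mul_cancel₀ habs.ne'
  refine ⟨QuotientGroup.mk (⟨G, hdet⟩ : SLR 4), ⟨G, hdet⟩, 1, c, w, 0, rfl, ⟨1, one_mul 1⟩, ?_,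
    hcpos, hw1, by simp, ?_⟩
  · intro a ha
    have h1 : (1 : KK) ∈ (1 : Submodule (Of f) KK) := Submodule.one_le.mp le_rfl
    have := ha 1 h1
    rw [mul_one, Submodule.mem_one] at this
    obtain ⟨y, hy⟩ := this
    rw [← hy]
    exact y.2
  · ext v
    simp only [latticeOf, Set.mem_range, Set.mem_ofPred_eq]
    constructor
    · rintro ⟨z, rfl⟩
      refine ⟨∑ k, z k • bf f k, ?_, ?_⟩
      · rw [Submodule.mem_one]
        have hmem : ∑ k, z k • bf f k ∈ Of f := by
          show _ ∈ Mf f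
          exact Submodule.sum_mem _ fun k _ => Submodule.smul_mem _ _ (Submodule.subset_span ⟨k, rfl⟩)
        exact ⟨⟨_, hmem⟩, rfl⟩
      · intro j
        simp only [Matrix.mulVec, dotProduct, hG, Matrix.smul_apply, Matrix.diagonal_mul, VV,
          Matrix.of_apply, smul_eq_mul, Pi.zero_apply, Real.exp_zero, mul_one, map_sum,
          zsmul_eq_mul, map_mul, map_intCast]
        rw [Finset.sum_mul, Finset.mul_sum]
        apply Finset.sum_congr rfl
        intro k _
        ring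
    · rintro ⟨y, hy, hv⟩
      rw [Submodule.mem_one] at hy
      obtain ⟨y', rfl⟩ := hy
      have hy2 : (y' : KK) ∈ Submodule.span ℤ (Set.range (bf f)) := y'.2
      rw [Submodule.mem_span_range_iff_exists_fun] at hy2
      obtain ⟨z, hz⟩ := hy2
      refine ⟨z, ?_⟩
      ext j
      rw [hv j]
      have : (algebraMap (Of f) KK) y' = ∑ k, z k • bf f k := hz.symm
      rw [this]
      simp only [Matrix.mulVec, dotProduct, hG, Matrix.smul_apply, Matrix.diagonal_mul, VV,
          Matrix.of_apply, smul_eq_mul, Pi.zero_apply, Real.exp_zero, mul_one, map_sum,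
          zsmul_eq_mul, map_mul, map_intCast]
      rw [Finset.sum_mul, Finset.mul_sum]
      apply Finset.sum_congr rfl
      intro k _
      ring

end Vale.Agent.Lib.P007
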