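import Vale.Agent.Lib.P007.Defs

open Matrix MeasureTheory Filter Topology

namespace Vale.Agent.Lib.P007

instance instLCSLR (n : ℕ) : LocallyCompactSpace (SLR n) :=
  haveI : LocallyCompactSpace (Matrix (Fin n) (Fin n) ℝ) :=
    inferInstanceAs (LocallyCompactSpace (Fin n → Fin n → ℝ))
  (Matrix.SpecialLinearGroup.isClosedEmbedding_val).locallyCompactSpace

instance instSCSLR (n : ℕ) : SecondCountableTopology (SLR n) :=
  haveI : SecondCountableTopology (Matrix (Fin n) (Fin n) ℝ) :=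
    inferInstanceAs (SecondCountableTopology (Fin n → Fin n → ℝ))
  (Matrix.SpecialLinearGroup.isClosedEmbedding_val (n := Fin n)
    (R := ℝ)).isEmbedding.secondCountableTopology

instance instClosedSLZ (n : ℕ) : IsClosed (SLZ n : Set (SLR n)) := by
  have h : IsClosedEmbedding (Matrix.SpecialLinearGroup.map (n := Fin n) (Int.castRingHom ℝ)) :=
    Topology.IsClosedEmbedding.specialLinearGroup_map Int.isClosedEmbedding_coe_real
  have : (SLZ n : Set (SLR n))
      = Set.range (Matrix.SpecialLinearGroup.map (n := Fin n) (Int.castRingHom ℝ)) := by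
    ext x; simp [SLZ]
  rw [this]; exact h.isClosed_range

/-- matrices `g` such that `g⁻¹ D g` is integral -/
def stabSet (n : ℕ) (D : Matrix (Fin n) (Fin n) ℝ) : Set (SLR n) :=
  {g | ∃ M : Matrix (Fin n) (Fin n) ℤ, (g⁻¹).1 * D * g.1 = M.map (Int.cast : ℤ → ℝ)}

lemma isClosed_stabSet (n : ℕ) (D : Matrix (Fin n) (Fin n) ℝ) : IsClosed (stabSet n D) := by
  have h1 : IsClosed (Set.range (fun M : Matrix (Fin n) (Fin n) ℤ => M.map (Int.cast : ℤ → ℝ))) :=
    (Int.isClosedEmbedding_coe_real.matrix_map).isClosed_range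
  have h2 : Continuous (fun g : SLR n => (g⁻¹).1 * D * g.1) := by
    have : Continuous (fun g : SLR n => (g⁻¹).1) := continuous_subtype_val.comp continuous_inv
    exact (this.mul continuous_const).mul continuous_subtype_val
  have : stabSet n D = (fun g : SLR n => (g⁻¹).1 * D * g.1) ⁻¹'
      (Set.range (fun M : Matrix (Fin n) (Fin n) ℤ => M.map (Int.cast : ℤ → ℝ))) := by
    ext g
    simp only [stabSet, Set.mem_ofPred_eq, Set.mem_preimage, Set.mem_range]
    constructor
    · rintro ⟨M, hM⟩; exact ⟨M, hM.symm⟩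
    · rintro ⟨M, hM⟩; exact ⟨M, hM.symm⟩
  rw [this]
  exact h1.preimage h2

lemma stabSet_mul_right (n : ℕ) (D : Matrix (Fin n) (Fin n) ℝ) (g γ : SLR n)
    (hg : g ∈ stabSet n D) (hγ : γ ∈ SLZ n) : g * γ ∈ stabSet n D := by
  obtain ⟨M, hM⟩ := hg
  obtain ⟨δ, rfl⟩ := hγ
  refine ⟨(δ⁻¹).1 * M * δ.1, ?_⟩
  have e1 : ((Matrix.SpecialLinearGroup.map (Int.castRingHom ℝ)) δ).1
      = δ.1.map (Int.cast : ℤ → ℝ) := rfl
  have e2 : (((Matrix.SpecialLinearGroup.map (Int.castRingHom ℝ)) δ)⁻¹).1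
      = (δ⁻¹).1.map (Int.cast : ℤ → ℝ) := by
    rw [← map_inv]; rfl
  rw [_root_.mul_inv_rev]
  simp only [Matrix.SpecialLinearGroup.coe_mul]
  rw [e1, e2]
  have : (δ⁻¹).1.map (Int.cast : ℤ → ℝ) * (g⁻¹).1 * D * (g.1 * δ.1.map (Int.cast : ℤ → ℝ))
      = (δ⁻¹).1.map (Int.cast : ℤ → ℝ) * ((g⁻¹).1 * D * g.1) * δ.1.map (Int.cast : ℤ → ℝ) := by
    simp only [Matrix.mul_assoc]
  rw [this, hM]
  have hmap : ∀ A B : Matrix (Fin n) (Fin n) ℤ, (A * B).map (Int.cast : ℤ → ℝ)
      = A.map (Int.cast : ℤ → ℝ) * B.map (Int.cast : ℤ → ℝ) := by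
    intro A B
    exact Matrix.map_mul (f := Int.castRingHom ℝ)
  rw [hmap, hmap]

theorem exists_bump (n : ℕ) (D : Matrix (Fin n) (Fin n) ℝ)
    (hD : ¬ ∃ M : Matrix (Fin n) (Fin n) ℤ, D = M.map (Int.cast : ℤ → ℝ)) :
    ∃ f : X n → ℝ, Continuous f ∧ HasCompactSupport f ∧ (∀ x, 0 ≤ f x) ∧
      (∀ g ∈ stabSet n D, f (g : X n) = 0) ∧
      ∀ [MeasurableSpace (X n)] [BorelSpace (X n)] (m : Measure (X n)) [IsProbabilityMeasure m]
        [SMulInvariantMeasure (SLR n) (X n) m], 0 < ∫ x, f x ∂m := by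
  set Y : Set (X n) := (fun g : SLR n => (g : X n)) '' stabSet n D with hY
  have hpre : (fun g : SLR n => (g : X n)) ⁻¹' Y = stabSet n D := by
    ext g
    constructor
    · rintro ⟨g', hg', h⟩
      have : g'⁻¹ * g ∈ SLZ n := QuotientGroup.eq.mp h
      have := stabSet_mul_right n D g' _ hg' this
      simpa using this
    · intro hg; exact ⟨g, hg, rfl⟩
  have hYc : IsClosed Y := by
    have : IsQuotientMap (fun g : SLR n => (g : X n)) := QuotientGroup.isQuotientMap_mk _
    rw [← this.isClosed_preimage, hpre]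
    exact isClosed_stabSet n D
  have h1 : ((1 : SLR n) : X n) ∉ Y := by
    intro h
    have : (1 : SLR n) ∈ stabSet n D := by rw [← hpre]; exact h
    obtain ⟨M, hM⟩ := this
    apply hD
    refine ⟨M, ?_⟩
    simpa using hM
  obtain ⟨f, hf1, hf0, hfc, hf01⟩ := exists_continuous_one_zero_of_isCompact
    (isCompact_singleton (x := ((1 : SLR n) : X n))) hYc (by simpa using h1)
  refine ⟨f, f.continuous, hfc, fun x => (hf01 x).1, ?_, ?_⟩
  · intro g hg
    exact hf0 ⟨g, hg, rfl⟩
  · intro _ _ m _ _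
    have hpos : Measure.IsOpenPosMeasure m := by
      constructor
      intro U hU hne
      exact (measure_isOpen_pos_of_smulInvariant_of_ne_zero (SLR n)
        (IsProbabilityMeasure.ne_zero m) hU hne).ne'
    have hint : Integrable f m := by
      apply f.continuous.integrable_of_hasCompactSupport hfc
    rw [integral_pos_iff_support_of_nonneg (fun x => (hf01 x).1) hint]
    apply IsOpen.measure_pos m
    · exact f.continuous.isOpen_support
    · refine ⟨((1 : SLR n) : X n), ?_⟩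
      have : f ((1 : SLR n) : X n) = 1 := hf1 (by simp)
      simp [Function.mem_support, this]

/-- A lattice of the packet of `O` is stable under the diagonal matrix of any `α ∈ O`. -/
theorem packet_subset_stab {n : ℕ} {K : Type} [Field K] (σ : Fin n → K →+* ℝ) (O : Subring K)
    (α : K) (hα : α ∈ O) (x : X n) (hx : x ∈ packetOrbits σ O) :
    ∃ g ∈ stabSet n (Matrix.diagonal fun j => σ j α), (g : X n) = x := by
  obtain ⟨g, I, c, w, u, hgx, -, -, -, -, -, hlat⟩ := hx
  refine ⟨g, ?_, hgx⟩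
  -- stability of the lattice
  have hstab : ∀ v ∈ latticeOf g, (Matrix.diagonal fun j => σ j α).mulVec v ∈ latticeOf g := by
    intro v hv
    rw [hlat] at hv ⊢
    obtain ⟨y, hy, hvy⟩ := hv
    refine ⟨α * y, ?_, ?_⟩
    · have := I.smul_mem (⟨α, hα⟩ : O) hy
      simpa [Subring.smul_def] using this
    · intro j
      rw [Matrix.mulVec_diagonal, hvy j, map_mul]
      ring
  -- columns
  have hcol : ∀ k : Fin n, ∃ z : Fin n → ℤ,
      g.1.mulVec (fun j => (z j : ℝ)) = (Matrix.diagonal fun j => σ j α).mulVec (g.1.mulVec (Pi.single k 1)) := by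
    intro k
    have hk : g.1.mulVec (Pi.single k 1) ∈ latticeOf g := by
      refine ⟨Pi.single k 1, ?_⟩
      have e : (fun j => (((Pi.single k 1 : Fin n → ℤ) j : ℤ) : ℝ)) = Pi.single k (1 : ℝ) := by
        ext j
        simp [Pi.single_apply]
      show g.1.mulVec (fun j => (((Pi.single k 1 : Fin n → ℤ) j : ℤ) : ℝ)) = _
      rw [e]
    exact hstab _ hk
  choose z hz using hcol
  refine ⟨Matrix.of fun i k => z k i, ?_⟩
  have key : (Matrix.diagonal fun j => σ j α) * g.1
      = g.1 * (Matrix.of fun i k => z k i).map (Int.cast : ℤ → ℝ) := by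
    ext i k
    have h1 := congrFun (hz k) i
    rw [Matrix.mulVec_single_one, Matrix.mulVec_diagonal] at h1
    rw [Matrix.diagonal_mul, Matrix.mul_apply]
    simp only [Matrix.mulVec, dotProduct, Matrix.col_apply] at h1
    simp only [Matrix.map_apply, Matrix.of_apply]
    exact h1.symm
  have hinv : (g⁻¹).1 * g.1 = 1 := by
    rw [← Matrix.SpecialLinearGroup.coe_mul]; simp
  rw [Matrix.mul_assoc, key, ← Matrix.mul_assoc, hinv, Matrix.one_mul]

end Vale.Agent.Lib.P007
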